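import Vale.Agent.P271.H.RemU
import Vale.Agent.P271.H.Sub

/-! P271 H/Remov: square integrable holomorphic functions extend across hypersurfaces. See
`notes/P271.md`, part H. -/

open MeasureTheory Set Filter Topology
open scoped ContDiff ENNReal ComplexConjugate

noncomputable section

namespace Vale.Agent.P271

namespace EtDom

variable {n : ℕ} {Ω : Type} [TopologicalSpace Ω] [T2Space Ω] [SecondCountableTopology Ω]
  [MeasurableSpace Ω] [BorelSpace Ω] {D : EtDom n Ω}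

theorem removable {W : Set Ω} (hW : IsOpen W) {Q r : Ω → ℂ} (hQ : ∀ z ∈ W, D.HolAt Q z)
    (hr : ∀ z ∈ W, Q z ≠ 0 → D.HolAt r z)
    (h2 : ∀ z ∈ W, ∃ N ∈ 𝓝 z,
      ∫⁻ w in N ∩ {w | Q w ≠ 0}, ENNReal.ofReal (‖r w‖ ^ 2) ∂D.ν ≠ ⊤) :
    ∃ R : Ω → ℂ, (∀ z ∈ W, D.HolAt R z) ∧ ∀ z ∈ W, Q z ≠ 0 → R z = r z := by
  obtain ⟨R, h1, h3⟩ := removable_univ (D := D.restr hW) (Q := fun w : W => Q w.1)
    (r := fun w : W => r w.1) (fun z => (restr_holAt hW z Q).2 (hQ z.1 z.2))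
    (fun z h => (restr_holAt hW z r).2 (hr z.1 z.2 h)) fun z => by
      obtain ⟨N, hN, h⟩ := h2 z.1 z.2
      exact ⟨Subtype.val ⁻¹' N, continuous_subtype_val.continuousAt.preimage_mem_nhds hN,
        ne_top_of_le_ne_top h (restr_setLint hW (N ∩ {w | Q w ≠ 0})
          fun w => ENNReal.ofReal (‖r w‖ ^ 2))⟩
  obtain ⟨G, rfl⟩ := restr_ext R
  exact ⟨G, fun z hz => (restr_holAt hW ⟨z, hz⟩ G).1 (h1 _), fun z hz h => h3 ⟨z, hz⟩ h⟩

end EtDom

end Vale.Agent.P271
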