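import Vale.Agent.P271.H.IBP
import Vale.Agent.P271.H.Quad

/-! P271 H/RemA: the energy bound for the logarithmic cutoffs.

Plan. `psh_log_sq` with index `Unit` and `Psh.smul` give `psh_lq`. `-3 ≤ lq Q S z` and
`lq Q S z ≤ log (1 + ‖Q z‖ ^ 2)`. `u = (lq Q S + 3) ^ 2`; `levi_comp` at the vector `Pi.single j 1`:
`2 ‖d j (lq)‖ ^ 2 ≤ levi u (single j 1) = re (d j (db j u))`. With the test function
`p = (‖v‖ ^ 2 : ℂ) = v * conj v`: `∫ d j (db j u) * p = ∫ u * db j (d j p)` (`ibp_d`, `ibp_db`), whose norm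
is at most `∫ (log (1 + ‖Q‖ ^ 2) + 3) ^ 2 * ‖db j (d j p)‖`, a continuous function with compact
support. Auxiliary names start with `rema_`. -/

open MeasureTheory Set Filter Topology
open scoped ContDiff ENNReal ComplexConjugate Convolution

noncomputable section

namespace Vale.Agent.P271

namespace EtDom

variable {n : ℕ} {Ω : Type} [TopologicalSpace Ω] [T2Space Ω] [SecondCountableTopology Ω]
  [MeasurableSpace Ω] [BorelSpace Ω] {D : EtDom n Ω}

variable {Q : Ω → ℂ}

theorem psh_lq (hQ : ∀ z, D.HolAt Q z) (S : ℕ) (z : Ω) : D.Psh (lq Q S) z := by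
  refine ((psh_log_sq (ι := Unit) (s := fun _ => Q) (fun _ => hQ z)
    (Real.exp_pos (-3 * ((S : ℝ) + 1)))).smul (c := ((S : ℝ) + 1)⁻¹) (by positivity)).congr
    (Eventually.of_forall fun w => ?_)
  simp [lq, div_eq_inv_mul]

omit [TopologicalSpace Ω] [T2Space Ω] [SecondCountableTopology Ω] [MeasurableSpace Ω]
  [BorelSpace Ω] in
theorem rema_bd (S : ℕ) (z : Ω) : -3 ≤ lq Q S z ∧ lq Q S z ≤ Real.log (1 + ‖Q z‖ ^ 2) := by
  have hS : (0 : ℝ) < (S : ℝ) + 1 := by positivity
  have h0 := Real.exp_pos (-3 * ((S : ℝ) + 1))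
  have h1 : Real.exp (-3 * ((S : ℝ) + 1)) ≤ 1 := Real.exp_le_one_iff.2 (by linarith)
  have h2 : 0 ≤ Real.log (1 + ‖Q z‖ ^ 2) := Real.log_nonneg (by linarith [sq_nonneg ‖Q z‖])
  constructor
  · rw [lq, le_div_iff₀ hS, Real.le_log_iff_exp_le (by positivity)]
    linarith [sq_nonneg ‖Q z‖]
  · rw [lq, div_le_iff₀ hS]
    refine (Real.log_le_log (by positivity) (add_le_add_left h1 _)).trans ?_
    nlinarith [Nat.cast_nonneg (α := ℝ) S]

omit [T2Space Ω] [SecondCountableTopology Ω] [BorelSpace Ω] in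
theorem rema_levi (u : Ω → ℝ) (z : Ω) (j : Fin n) :
    D.levi u z (Pi.single j 1) = (D.d j (D.db j fun w => (u w : ℂ)) z).re ∧
      D.dv u z (Pi.single j 1) = D.d j (fun w => (u w : ℂ)) z := by
  simp [levi, dv, Pi.single_apply, apply_ite conj]

theorem rem_energy (hQ : ∀ z, D.HolAt Q z) {v : Ω → ℂ} (hv : D.Test v) (j : Fin n) :
    ∃ C : ℝ, ∀ S, ∫ z, ‖v z * D.d j (fun w => (lq Q S w : ℂ)) z‖ ^ 2 ∂D.ν ≤ C := by
  have hp : D.Test fun z => v z * conj (v z) := hv.mul_right hv.conj.1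
  have hL : ∀ z, D.SmAt (fun w => ((Real.log (1 + ‖Q w‖ ^ 2) + 3) ^ 2 : ℝ)) z := fun z => by
    have h1 := ((psh_log_sq (ι := Unit) (s := fun _ => Q) (fun _ => hQ z) one_pos).1.add
      (smAt_const 3)).comp (χ := fun t : ℝ => t ^ 2) (by fun_prop)
    simpa using h1
  have hB := (((hp.d j).db j).mul_left fun z => (hL z).ofReal).integrable.norm
  refine ⟨_, fun S => le_trans ?_ (norm_integral_le_of_norm_le hB (f := fun z =>
    (((lq Q S z + 3) ^ 2 : ℝ) : ℂ) * D.db j (D.d j fun z => v z * conj (v z)) z)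
    (Eventually.of_forall fun z => ?_))⟩
  · have hχ : ContDiff ℝ ∞ fun t : ℝ => (t + 3) ^ 2 := by fun_prop
    have hu : ∀ z, D.SmAt (fun w => (((lq Q S w + 3) ^ 2 : ℝ) : ℂ)) z := fun z =>
      ((psh_lq hQ S z).1.comp hχ.contDiffAt).ofReal
    have hI := (hp.mul_left fun z => ((hu z).db j).d j).integrable
    rw [ibp_db j hu (hp.d j), ibp_d j (fun z => (hu z).db j) hp, neg_neg]
    refine le_trans ?_ (Complex.re_le_norm _)
    rw [← RCLike.re_to_complex, ← integral_re hI]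
    refine integral_mono_of_nonneg (Eventually.of_forall fun z => by positivity) hI.re
      (Eventually.of_forall fun z => ?_)
    have d1 : deriv (fun t : ℝ => (t + 3) ^ 2) = fun t => 2 * (t + 3) := funext fun t => by
      simpa using (((hasDerivAt_id t).add_const 3).pow 2).deriv
    have d2 : ∀ t, deriv (fun t : ℝ => 2 * (t + 3)) t = 2 := fun t => by
      simpa using (((hasDerivAt_id t).add_const 3).const_mul 2).deriv
    have h1 := levi_comp (Pi.single j 1) (psh_lq hQ S z).1 hχ.contDiffAt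
    rw [d1, d2, (rema_levi _ z j).1, (rema_levi _ z j).2] at h1
    have h2 := mul_nonneg (show 0 ≤ 2 * (lq Q S z + 3) by linarith [(rema_bd (Q := Q) S z).1])
      ((psh_lq hQ S z).2 (Pi.single j 1))
    simp only [RCLike.re_to_complex, Complex.mul_conj', ← Complex.ofReal_pow,
      Complex.re_mul_ofReal, norm_mul, mul_pow, h1]
    rw [mul_comm]
    refine mul_le_mul_of_nonneg_right ?_ (sq_nonneg _)
    linarith [sq_nonneg ‖D.d j (fun w => (lq Q S w : ℂ)) z‖]
  · simp only [norm_mul, Complex.norm_real, Real.norm_of_nonneg (sq_nonneg _)]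
    obtain ⟨h1, h2⟩ := rema_bd (Q := Q) S z
    gcongr
    linarith

end EtDom

end Vale.Agent.P271
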