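import Vale.Agent.P271.H.RemA
import Vale.Agent.P271.H.One

/-! P271 H/RemB: a square integrable function holomorphic off `Q = 0` is weakly holomorphic.

Plan. `κ, C` from `exists_kappa`, `b S w = κ (lq Q S w + 2)`. Near a zero of `Q`, `lq Q S < -2` so
`b S = 0` nearby; hence `r * b S` is smooth everywhere and `db j (r * b S) = r * db j (b S)`.
`ibp_db`: `∫ r * b S * db j v = - ∫ r * db j (b S) * v`. The left side tends to `∫ r * db j v`
(dominated convergence: `r * db j v = (χ * r) * db j v` with `χ` from `exists_cut`, `int_mul`; for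
`Q z ≠ 0`, `lq Q S z ≥ log (‖Q z‖ ^ 2) / (S + 1) > -1` eventually). For the right side
`‖db j (b S)‖ ≤ C ‖d j (lq)‖` (`db_comp`, `db_ofReal`), zero where `lq Q S > -1`; so the integrand is
bounded by `ε ‖v * d j lq‖ ^ 2 + C ^ 2 / ε * 1_{lq ≤ -1} ‖χ r‖ ^ 2`, and the integral of the last
function tends to `0` (dominated convergence). Auxiliary names start with `remb_`. -/

open MeasureTheory Set Filter Topology
open scoped ContDiff ENNReal ComplexConjugate Convolution

noncomputable section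

namespace Vale.Agent.P271

namespace EtDom

variable {n : ℕ} {Ω : Type} [TopologicalSpace Ω] [T2Space Ω] [SecondCountableTopology Ω]
  [MeasurableSpace Ω] [BorelSpace Ω] {D : EtDom n Ω}

omit [TopologicalSpace Ω] [T2Space Ω] [SecondCountableTopology Ω] [MeasurableSpace Ω]
  [BorelSpace Ω] in
theorem remb_zero {Q : Ω → ℂ} {z : Ω} (hz : Q z = 0) {S : ℕ} : lq Q S z = -3 := by
  rw [lq, hz, norm_zero, zero_pow two_ne_zero, add_zero, Real.log_exp]
  field_simp

omit [TopologicalSpace Ω] [T2Space Ω] [SecondCountableTopology Ω] [MeasurableSpace Ω]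
  [BorelSpace Ω] in
theorem remb_ev {Q : Ω → ℂ} {z : Ω} (hz : Q z ≠ 0) : ∀ᶠ S : ℕ in atTop, -1 < lq Q S z := by
  filter_upwards [(tendsto_natCast_atTop_atTop (R := ℝ)).eventually_gt_atTop
    (-Real.log (‖Q z‖ ^ 2))] with S hS
  rw [lq, lt_div_iff₀ (by positivity)]
  have := Real.log_le_log (by positivity : 0 < ‖Q z‖ ^ 2)
    (le_add_of_nonneg_left (Real.exp_pos (-3 * ((S : ℝ) + 1))).le)
  linarith

theorem remb_pt {x v d : ℂ} {k C ε : ℝ} (hε : 0 < ε) (hk : |k| ≤ C) :
    ‖x * v * (k * conj d)‖ ≤ ε * ‖v * d‖ ^ 2 + C ^ 2 / ε * ‖x‖ ^ 2 := by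
  have C0 : 0 ≤ C := (abs_nonneg _).trans hk
  have e : ‖x * v * (k * conj d)‖ = |k| * (‖x‖ * ‖v * d‖) := by
    simp only [norm_mul, Complex.norm_conj, Complex.norm_real, Real.norm_eq_abs]; ring
  have h1 := mul_le_mul_of_nonneg_right hk (by positivity : 0 ≤ ‖x‖ * ‖v * d‖)
  have h2 : ε * ‖v * d‖ ^ 2 + C ^ 2 / ε * ‖x‖ ^ 2 - 2 * (C * (‖x‖ * ‖v * d‖)) =
      (ε * ‖v * d‖ - C * ‖x‖) ^ 2 / ε := by field_simp; ring
  have h3 : 0 ≤ (ε * ‖v * d‖ - C * ‖x‖) ^ 2 / ε := by positivity
  have h4 : 0 ≤ C * (‖x‖ * ‖v * d‖) := by positivity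
  linarith

theorem remb_lim {u : ℕ → ℂ} {x : ℂ} {T : ℕ → ℝ} {B c : ℝ} (hu : Tendsto u atTop (𝓝 x))
    (hT : Tendsto T atTop (𝓝 0)) (h : ∀ ε > 0, ∀ S, ‖u S‖ ≤ ε * B + c / ε * T S) : x = 0 := by
  refine norm_le_zero_iff.1 (le_of_forall_pos_le_add fun δ hδ => ?_)
  have k := le_of_tendsto_of_tendsto' hu.norm ((hT.const_mul _).const_add _)
    (h (δ / (|B| + 1)) (by positivity))
  have k2 : δ / (|B| + 1) * (|B| + 1) = δ := by field_simp
  have k3 : 0 < δ / (|B| + 1) := by positivity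
  have k4 := mul_le_mul_of_nonneg_left (le_abs_self B) k3.le
  linarith

theorem rem_weak {Q r : Ω → ℂ} (hQ : ∀ z, D.HolAt Q z) (hr : ∀ z, Q z ≠ 0 → D.HolAt r z)
    (h0 : ∀ z, Q z = 0 → r z = 0) (h2 : ∀ v, D.Test v → MemLp (fun z => v z * r z) 2 D.ν)
    (j : Fin n) {v : Ω → ℂ} (hv : D.Test v) : ∫ z, r z * D.db j v z ∂D.ν = 0 :=
by
  obtain ⟨κ, C, κs, κ01, κ0, κ1, κC, κd⟩ := exists_kappa
  obtain ⟨χ, tχ, -, χ1⟩ := exists_cut (D := D) hv.2 isOpen_univ (subset_univ _)
  obtain ⟨B, hB⟩ := rem_energy hQ hv j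
  have sl : ∀ S z, D.SmAt (lq Q S) z := fun S z => (psh_lq hQ S z).1
  have sb : ∀ S z, D.SmAt (fun w => (κ (lq Q S w + 2) : ℂ)) z := fun S z =>
    (((sl S z).add (smAt_const 2)).comp κs.contDiffAt).ofReal
  have b0 : ∀ S z, Q z = 0 → (fun _ => (0 : ℂ)) =ᶠ[𝓝 z] fun w => r w * (κ (lq Q S w + 2) : ℂ) :=
    fun S z hz => ((sl S z).continuousAt.eventually_lt_const
      (show lq Q S z < -2 by rw [remb_zero hz]; norm_num)).mono fun w hw => by
        simp only [κ0 _ (show lq Q S w + 2 ≤ 0 by linarith), Complex.ofReal_zero, mul_zero]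
  have srb : ∀ S z, D.SmAt (fun w => r w * (κ (lq Q S w + 2) : ℂ)) z := fun S z => by
    by_cases hz : Q z = 0
    · exact (smAt_const 0).congr (b0 S z hz)
    · exact (hr z hz).smAt.mul (sb S z)
  have drb : ∀ S z, D.db j (fun w => r w * (κ (lq Q S w + 2) : ℂ)) z = r z *
      (deriv κ (lq Q S z + 2) * conj (D.d j (fun w => (lq Q S w : ℂ)) z)) := fun S z => by
    by_cases hz : Q z = 0
    · rw [← db_congr j (b0 S z hz), db_const, h0 z hz, zero_mul]
    · rw [db_mul j (hr z hz).smAt (sb S z), (hr z hz).db_eq, zero_mul, zero_add,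
        db_comp j (sl S z) (χ := fun t => κ (t + 2))
          ((κs.differentiable (by simp) _).hasDerivAt.comp_add_const _ 2), db_ofReal j (sl S z)]
  have m := h2 χ tχ
  have c1 : ∀ z, r z * D.db j v z = χ z * r z * D.db j v z := fun z => by
    by_cases hz : z ∈ tsupport v
    · rw [(χ1 z hz).self_of_nhds, one_mul]
    · rw [db_eq, fd_zero hz, map_zero, mul_zero, mul_zero]
  have c2 : ∀ z, r z * v z = χ z * r z * v z := fun z => by
    by_cases hz : z ∈ tsupport v
    · rw [(χ1 z hz).self_of_nhds, one_mul]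
    · rw [image_eq_zero_of_notMem_tsupport hz, mul_zero, mul_zero]
  have i1 : Integrable (fun z => r z * D.db j v z) D.ν := by
    simp only [c1]; exact int_mul m (hv.db j).memLp
  have l1 : Tendsto (fun S => ∫ z, r z * (κ (lq Q S z + 2) : ℂ) * D.db j v z ∂D.ν) atTop
      (𝓝 (∫ z, r z * D.db j v z ∂D.ν)) := by
    refine tendsto_integral_of_dominated_convergence _
      (fun S => ((hv.db j).mul_left (srb S)).continuous.aestronglyMeasurable) i1.norm
      (fun S => Eventually.of_forall fun z => ?_) (Eventually.of_forall fun z => ?_)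
    · rw [mul_right_comm, norm_mul _ (_ : ℂ), Complex.norm_real, Real.norm_of_nonneg (κ01 _).1]
      exact mul_le_of_le_one_right (norm_nonneg _) (κ01 _).2
    · by_cases hz : Q z = 0
      · simp only [h0 z hz, zero_mul, tendsto_const_nhds]
      · exact tendsto_const_nhds.congr' ((remb_ev hz).mono fun S hS => by
          simp only [κ1 _ (show 1 ≤ lq Q S z + 2 by linarith), Complex.ofReal_one, mul_one])
  have iT : ∀ S, Integrable ({z | lq Q S z ≤ -1}.indicator fun z => ‖χ z * r z‖ ^ 2) D.ν :=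
    fun S => (int_sq m).indicator (isClosed_le (cont_of_sm (sl S)) continuous_const).measurableSet
  have l2 : Tendsto (fun S => ∫ z, {z | lq Q S z ≤ -1}.indicator (fun z => ‖χ z * r z‖ ^ 2) z ∂D.ν)
      atTop (𝓝 0) := by
    have := tendsto_integral_of_dominated_convergence (μ := D.ν) (f := fun _ => (0 : ℝ)) _
      (fun S => (iT S).aestronglyMeasurable) (int_sq m).norm
      (fun S => Eventually.of_forall fun z => norm_indicator_le_norm_self _ z)
      (Eventually.of_forall fun z => by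
        by_cases hz : Q z = 0
        · simp [indicator, h0 z hz]
        · exact tendsto_const_nhds.congr' ((remb_ev hz).mono fun S hS =>
            (indicator_of_notMem (show z ∉ {z | lq Q S z ≤ -1} from not_le.2 hS) _).symm))
    rwa [integral_zero] at this
  refine remb_lim (B := B) (c := C ^ 2) l1 l2 fun ε hε S => ?_
  have iE := int_sq (hv.mul_right fun z => (sl S z).ofReal.d j).memLp
  rw [ibp_db j (srb S) hv, norm_neg]
  refine (norm_integral_le_of_norm_le ((iE.const_mul ε).add ((iT S).const_mul (C ^ 2 / ε)))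
    (Eventually.of_forall fun z => ?_)).trans ?_
  · rw [drb, mul_right_comm, c2, Pi.add_apply]
    by_cases hz : lq Q S z ≤ -1
    · rw [indicator_of_mem (show z ∈ {z | lq Q S z ≤ -1} from hz)]
      exact remb_pt hε (κC _)
    · rw [κd _ (Or.inr (by linarith [not_le.1 hz])),
        indicator_of_notMem (show z ∉ {z | lq Q S z ≤ -1} from hz)]
      simp only [Complex.ofReal_zero, zero_mul, mul_zero, norm_zero, add_zero]
      positivity
  · rw [integral_add' (iE.const_mul ε) ((iT S).const_mul _), integral_const_mul, integral_const_mul]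
    exact add_le_add (mul_le_mul_of_nonneg_left (hB S) hε.le) le_rfl

end EtDom

end Vale.Agent.P271
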