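import Vale.Agent.P271.H.RemB
import Vale.Agent.P271.H.Weyl

/-! P271 H/RemU: removable singularities on the whole domain.

Plan. `r' = {Q ≠ 0}.indicator r`, holomorphic where `Q ≠ 0` (`HolAt.congr`, the set is open),
`AEStronglyMeasurable` (`ContinuousOn.aestronglyMeasurable`, `aestronglyMeasurable_indicator_iff`).
For a test function `v`: `IsCompact.induction_on` gives
`∫⁻ w in K ∩ {Q ≠ 0}, ofReal (‖r w‖ ^ 2) ≠ ⊤` for `K = tsupport v` (`lintegral_union_le`,
`lintegral_mono_set`), then `memLp_two_iff_integrable_sq_norm`, `Test.bdd`. `rem_weak`, `weyl`,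
`Measure.eqOn_open_of_ae_eq` with `openPos`. Auxiliary names start with `remu_`. -/

open MeasureTheory Set Filter Topology
open scoped ContDiff ENNReal ComplexConjugate Convolution

noncomputable section

namespace Vale.Agent.P271

namespace EtDom

variable {n : ℕ} {Ω : Type} [TopologicalSpace Ω] [T2Space Ω] [SecondCountableTopology Ω]
  [MeasurableSpace Ω] [BorelSpace Ω] {D : EtDom n Ω}

theorem removable_univ {Q r : Ω → ℂ} (hQ : ∀ z, D.HolAt Q z) (hr : ∀ z, Q z ≠ 0 → D.HolAt r z)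
    (h2 : ∀ z, ∃ N ∈ 𝓝 z, ∫⁻ w in N ∩ {w | Q w ≠ 0}, ENNReal.ofReal (‖r w‖ ^ 2) ∂D.ν ≠ ⊤) :
    ∃ R : Ω → ℂ, (∀ z, D.HolAt R z) ∧ ∀ z, Q z ≠ 0 → R z = r z := by
  have hU : IsOpen {w | Q w ≠ 0} := isOpen_ne_fun (cont_of_sm fun z => (hQ z).smAt) continuous_const
  have hc : ContinuousOn r {w | Q w ≠ 0} := fun z hz =>
    (hr z hz).smAt.continuousAt.continuousWithinAt
  have k : ∀ v, D.Test v → MemLp (fun z => v z * {w | Q w ≠ 0}.indicator r z) 2 D.ν := by
    intro v hv
    have hK : IsCompact (tsupport v) := hv.2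
    have h3 : ∫⁻ w in tsupport v ∩ {w | Q w ≠ 0}, ENNReal.ofReal (‖r w‖ ^ 2) ∂D.ν < ⊤ :=
      hK.induction_on
        (p := fun K => ∫⁻ w in K ∩ {w | Q w ≠ 0}, ENNReal.ofReal (‖r w‖ ^ 2) ∂D.ν < ⊤) (by simp)
        (fun s t h ht => (lintegral_mono_set (inter_subset_inter_left _ h)).trans_lt ht)
        (fun s t hs ht => by
          rw [union_inter_distrib_right]
          exact (lintegral_union_le _ _ _).trans_lt (ENNReal.add_lt_top.2 ⟨hs, ht⟩))
        fun z _ => (h2 z).imp fun N h => ⟨mem_nhdsWithin_of_mem_nhds h.1, h.2.lt_top⟩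
    have hm := hK.measurableSet.inter hU.measurableSet
    have h4 := (hc.mono inter_subset_right).aestronglyMeasurable (μ := D.ν) hm
    have h5 := hv.mul_memLp ((memLp_indicator_iff_restrict hm).2
      ((memLp_two_iff_integrable_sq_norm h4).2 ⟨h4.norm.pow 2,
        (hasFiniteIntegral_iff_ofReal (.of_forall fun _ => sq_nonneg _)).2 h3⟩))
    refine h5.ae_eq (.of_forall fun z => ?_)
    by_cases hz : z ∈ tsupport v
    · simp only [← indicator_indicator, indicator_of_mem hz]
    · simp only [image_eq_zero_of_notMem_tsupport hz, zero_mul]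
  obtain ⟨R, h3, h4⟩ := weyl k fun j v hv => rem_weak hQ (fun z hz => (hr z hz).congr
    (eventually_of_mem (hU.mem_nhds hz) fun w hw => (indicator_of_mem hw r).symm))
    (fun z hz => indicator_of_notMem (not_not.2 hz) r) k j hv
  have := D.openPos
  refine ⟨R, h3, Measure.eqOn_open_of_ae_eq (μ := D.ν) ?_ hU
    (cont_of_sm fun z => (h3 z).smAt).continuousOn hc⟩
  filter_upwards [ae_restrict_of_ae h4, ae_restrict_mem hU.measurableSet] with z h5 hz
  exact h5.symm.trans (indicator_of_mem hz r)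

end EtDom

end Vale.Agent.P271
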